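import Vale.Agent.P317.Model

/-! P317: row DUAL. -/

namespace Vale.Agent.P317

variable {α : Type*}

theorem dual_isBase_compl (M : Matroid α) (hE : M.E = Set.univ) (B : Set α) :
    M✶.IsBase Bᶜ ↔ M.IsBase B := by
  rw [Matroid.dual_isBase_iff (hB := by rw [hE]; exact Set.subset_univ _), hE]
  rw [← Set.compl_eq_univ_sdiff, compl_compl]

/-- DUAL: duality for the counts -/
theorem card_bases_dual [Fintype α] (M : Matroid α) (hE : M.E = Set.univ) :
    (bases M✶).card = (bases M).card := by
  classical
  symm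
  apply Finset.card_bij (fun B _ => Bᶜ)
  · intro B hB
    rw [bases, Finset.mem_filter] at hB ⊢
    refine ⟨Finset.mem_univ _, ?_⟩
    rw [Finset.coe_compl, dual_isBase_compl M hE]
    exact hB.2
  · intro B _ B' _ h
    exact compl_injective h
  · intro B hB
    rw [bases, Finset.mem_filter] at hB
    refine ⟨Bᶜ, ?_, compl_compl B⟩
    rw [bases, Finset.mem_filter]
    refine ⟨Finset.mem_univ _, ?_⟩
    rw [← dual_isBase_compl M hE, ← Finset.coe_compl, compl_compl]
    exact hB.2

theorem card_common_dual [Fintype α] (M₁ M₂ : Matroid α) (hE1 : M₁.E = Set.univ)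
    (hE2 : M₂.E = Set.univ) : (common M₁✶ M₂✶).card = (common M₁ M₂).card := by
  classical
  symm
  apply Finset.card_bij (fun B _ => Bᶜ)
  · intro B hB
    rw [common, Finset.mem_filter] at hB ⊢
    refine ⟨Finset.mem_univ _, ?_⟩
    rw [Finset.coe_compl, dual_isBase_compl M₁ hE1, dual_isBase_compl M₂ hE2]
    exact hB.2
  · intro B _ B' _ h
    exact compl_injective h
  · intro B hB
    rw [common, Finset.mem_filter] at hB
    refine ⟨Bᶜ, ?_, compl_compl B⟩
    rw [common, Finset.mem_filter]
    refine ⟨Finset.mem_univ _, ?_⟩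
    rw [← dual_isBase_compl M₁ hE1, ← dual_isBase_compl M₂ hE2, ← Finset.coe_compl, compl_compl]
    exact hB.2

end Vale.Agent.P317
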