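import Vale.Agent.P317.Core
import Vale.Agent.P317.Dual

namespace Vale.Agent.P317

variable {α : Type*}

theorem mem_bases [Fintype α] (M : Matroid α) (B : Finset α) :
    B ∈ bases M ↔ M.IsBase (B : Set α) := by
  classical
  simp [bases]

theorem mem_common [Fintype α] (M₁ M₂ : Matroid α) (B : Finset α) :
    B ∈ common M₁ M₂ ↔ M₁.IsBase (B : Set α) ∧ M₂.IsBase (B : Set α) := by
  classical
  simp [common]

theorem near_primal [Fintype α] [DecidableEq α] (M₁ M₂ : Matroid α) (r c : ℕ)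
    (hr : ∀ B : Set α, M₂.IsBase B → B.ncard = r) (hE2 : M₂.E = Set.univ)
    (hN : (common M₁ M₂).Nonempty) (hc : ∀ I : Finset α, I.card ≤ r - c → M₂.Indep I) :
    ∀ B ∈ bases M₁, ∃ T ∈ common M₁ M₂, (B \ T).card ≤ 2 * c - 1 := by
  intro B hB
  obtain ⟨T, hT, hmin⟩ := Finset.exists_min_image (common M₁ M₂) (fun T => (B \ T).card) hN
  refine ⟨T, hT, ?_⟩
  rw [mem_bases] at hB
  rw [mem_common] at hT
  have hc' : ∀ I : Set α, I.ncard ≤ r - c → M₂.Indep I := by
    intro I hI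
    have h1 := hc I.toFinite.toFinset (by rwa [← Set.ncard_eq_toFinset_card])
    rwa [Set.Finite.coe_toFinset] at h1
  have h := core M₁ M₂ r c hT.1 hT.2 hB (hr _ hT.2) hE2 hc' (by
    intro T' h1 h2
    have h3 := hmin T'.toFinite.toFinset (by
      rw [mem_common, Set.Finite.coe_toFinset]; exact ⟨h1, h2⟩)
    have e1 : ((B : Set α) \ T).ncard = (B \ T).card := by
      rw [← Finset.coe_sdiff, Set.ncard_coe_finset]
    have e2 : ((B : Set α) \ T').ncard = (B \ T'.toFinite.toFinset).card := by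
      rw [← Set.ncard_coe_finset, Finset.coe_sdiff, Set.Finite.coe_toFinset]
    rw [e1, e2]; exact h3)
  rwa [← Finset.coe_sdiff, Set.ncard_coe_finset] at h

theorem ncard_base [Fintype α] (M : Matroid α) (r : ℕ) (hr : M.eRank = r) (B : Set α)
    (hB : M.IsBase B) : B.ncard = r := by
  have h := hB.encard_eq_eRank
  rw [hr] at h
  rw [Set.ncard, h]; rfl

theorem near_dual [Fintype α] [DecidableEq α] (M₁ M₂ : Matroid α) (r c : ℕ)
    (hr1 : ∀ B : Set α, M₁.IsBase B → B.ncard = r)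
    (hr : ∀ B : Set α, M₂.IsBase B → B.ncard = r) (hE1 : M₁.E = Set.univ) (hE2 : M₂.E = Set.univ)
    (hN : (common M₁ M₂).Nonempty)
    (hc : ∀ I : Finset α, I.card ≤ (Fintype.card α - r) - c → M₂✶.Indep I) :
    ∀ B ∈ bases M₁, ∃ T ∈ common M₁ M₂, (B \ T).card ≤ 2 * c - 1 := by
  intro B hB
  have hcompl : ∀ {M : Matroid α}, M.E = Set.univ → ∀ {X : Finset α}, M.IsBase (X : Set α) →
      M✶.IsBase ((Xᶜ : Finset α) : Set α) := by
    intro M hE X hX
    have := hX.compl_isBase_dual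
    rwa [hE, ← Set.compl_eq_univ_sdiff, ← Finset.coe_compl] at this
  have hcompl' : ∀ {M : Matroid α}, M.E = Set.univ → ∀ {X : Finset α}, M✶.IsBase (X : Set α) →
      M.IsBase ((Xᶜ : Finset α) : Set α) := by
    intro M hE X hX
    have := hX.compl_isBase_of_dual
    rwa [hE, ← Set.compl_eq_univ_sdiff, ← Finset.coe_compl] at this
  have hrd : ∀ X : Set α, M₂✶.IsBase X → X.ncard = Fintype.card α - r := by
    intro X hX
    have h1 := hX.compl_isBase_of_dual
    rw [hE2, ← Set.compl_eq_univ_sdiff] at h1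
    have h2 := hr _ h1
    have h3 := Set.ncard_add_ncard_compl X
    rw [Nat.card_eq_fintype_card] at h3
    omega
  have hN' : (common M₁✶ M₂✶).Nonempty := by
    obtain ⟨T, hT⟩ := hN
    rw [mem_common] at hT
    exact ⟨Tᶜ, by rw [mem_common]; exact ⟨hcompl hE1 hT.1, hcompl hE2 hT.2⟩⟩
  rw [mem_bases] at hB
  obtain ⟨T, hT, hle⟩ := near_primal M₁✶ M₂✶ (Fintype.card α - r) c hrd
    (by rw [Matroid.dual_ground, hE2]) hN' hc Bᶜ (by rw [mem_bases]; exact hcompl hE1 hB)
  rw [mem_common] at hT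
  have hT1 := hcompl' hE1 hT.1
  have hT2 := hcompl' hE2 hT.2
  refine ⟨Tᶜ, by rw [mem_common]; exact ⟨hT1, hT2⟩, ?_⟩
  have e1 : (B \ Tᶜ) = T \ Bᶜ := by
    ext x; simp [and_comm]
  have hc1 : B.card = r := by
    have := hr1 _ hB; rwa [Set.ncard_coe_finset] at this
  have hc2 : Tᶜ.card = r := by
    have := hr1 _ hT1; rwa [Set.ncard_coe_finset] at this
  have hc3 : T.card = Bᶜ.card := by
    have h4 := Finset.card_compl_add_card T
    have h5 := Finset.card_compl_add_card B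
    omega
  rw [e1, Finset.card_sdiff_comm hc3]
  exact hle

end Vale.Agent.P317
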