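import Vale.Agent.P317.Model

namespace Vale.Agent.P317

variable {α : Type*}

/-- DEG: large girth gives few bad elements -/
theorem deg [Finite α] (M : Matroid α) (r c : ℕ) {T : Set α} (hT : M.IsBase T)
    (hTr : T.ncard = r) (hE : M.E = Set.univ)
    (hc : ∀ I : Set α, I.ncard ≤ r - c → M.Indep I) {b : α} (hbT : b ∉ T) :
    {t | t ∈ T ∧ ¬ M.IsBase (insert b (T \ {t}))}.ncard ≤ c := by
  classical
  have hbE : b ∈ M.E := by rw [hE]; trivial
  have hcirc : M.IsCircuit (M.fundCircuit b T) := hT.fundCircuit_isCircuit hbE hbT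
  have hcl : b ∈ M.closure T := by rwa [hT.closure_eq]
  have hsub : {t | t ∈ T ∧ ¬ M.IsBase (insert b (T \ {t}))} ⊆ T \ M.fundCircuit b T := by
    rintro t ⟨ht, hnb⟩
    refine ⟨ht, fun hmem => hnb ?_⟩
    have hne : b ≠ t := fun h => hbT (h ▸ ht)
    have hind := (hT.indep.mem_fundCircuit_iff hcl hbT).1 hmem
    rw [← Set.insert_sdiff_singleton_comm hne] at hind
    exact hT.exchange_isBase_of_indep hbT hind
  have hfin : T.Finite := Set.toFinite T
  have hbig : r - c < (M.fundCircuit b T).ncard := by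
    by_contra hcon
    exact hcirc.not_indep (hc _ (not_lt.1 hcon))
  have hdiff := M.fundCircuit_sdiff_eq_inter hbT
  have hCT : (M.fundCircuit b T).ncard ≤ (M.fundCircuit b T ∩ T).ncard + 1 := by
    rw [← hdiff, Set.ncard_sdiff_singleton_of_mem (M.mem_fundCircuit b T)]
    omega
  have hpart : (T ∩ M.fundCircuit b T).ncard + (T \ M.fundCircuit b T).ncard = T.ncard :=
    Set.ncard_inter_add_ncard_sdiff_eq_ncard T _ hfin
  rw [Set.inter_comm] at hpart
  have h1 := Set.ncard_le_ncard hsub (hfin.sdiff)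
  omega

end Vale.Agent.P317
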