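import Vale.Agent.P317.Model

/-! P317: Hall's theorem for the exchange graph of two bases. -/

namespace Vale.Agent.P317

variable {α : Type*}

/-- an element `b` outside the base `T` is in the closure of the elements of `T` that it can
replace -/
theorem mem_closure_rep (M : Matroid α) {T : Set α} (hT : M.IsBase T) {b : α} (hbE : b ∈ M.E) :
    b ∈ M.closure {t | t ∈ T ∧ b ∉ M.closure (T \ {t})} := by
  set Js : Set (Set α) := insert T {J | ∃ t ∈ T, b ∈ M.closure (T \ {t}) ∧ J = T \ {t}} with hJs
  have hne : Js.Nonempty := ⟨T, Set.mem_insert _ _⟩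
  have hsub : ∀ J ∈ Js, J ⊆ T := by
    rintro J (rfl | ⟨t, -, -, rfl⟩)
    · exact subset_rfl
    · exact Set.sdiff_subset
  have h1 := hT.indep.closure_sInter_eq_biInter_closure_of_forall_subset hne hsub
  have h2 : b ∈ M.closure (⋂₀ Js) := by
    rw [h1, Set.mem_iInter₂]
    rintro J (rfl | ⟨t, -, h, rfl⟩)
    · rw [hT.closure_eq]; exact hbE
    · exact h
  refine M.closure_subset_closure ?_ h2
  intro x hx
  rw [Set.mem_sInter] at hx
  refine ⟨hx T (Set.mem_insert _ _), fun hcon => ?_⟩
  have h3 := hx (T \ {x}) (Or.inr ⟨x, hx T (Set.mem_insert _ _), hcon, rfl⟩)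
  exact h3.2 rfl

open Classical in
/-- SDR: Hall's theorem for the exchange graph of two bases -/
theorem sdr [Finite α] (M : Matroid α) {T B : Set α} (hT : M.IsBase T) (hB : M.IsBase B) :
    ∃ f : α → α, Set.InjOn f (B \ T) ∧
      ∀ b ∈ B \ T, f b ∈ T \ B ∧ M.IsBase (insert b (T \ {f b})) := by
  have : Fintype α := Fintype.ofFinite α
  set N : {b // b ∈ B \ T} → Finset α := fun b =>
    Finset.univ.filter fun t => t ∈ T \ B ∧ M.IsBase (insert b.1 (T \ {t})) with hN
  have hall : ∀ s : Finset {b // b ∈ B \ T}, s.card ≤ (s.biUnion N).card := by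
    intro s
    set X : Set α := ↑(s.biUnion N) with hX
    set S : Set α := ↑(s.map (Function.Embedding.subtype _)) with hS
    have hXT : X ⊆ T \ B := by
      intro x hx
      rw [hX, Finset.mem_coe, Finset.mem_biUnion] at hx
      obtain ⟨b, -, hb⟩ := hx
      rw [hN, Finset.mem_filter] at hb
      exact hb.2.1
    have hSB : S ⊆ B \ T := by
      intro x hx
      rw [hS, Finset.mem_coe, Finset.mem_map] at hx
      obtain ⟨b, -, rfl⟩ := hx
      exact b.2
    have hcl : S ∪ (T ∩ B) ⊆ M.closure (X ∪ (T ∩ B)) := by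
      rintro x (hx | hx)
      · have hxB := hSB hx
        have h1 := mem_closure_rep M hT (hB.subset_ground hxB.1)
        refine M.closure_subset_closure ?_ h1
        rintro t ⟨htT, ht⟩
        by_cases htB : t ∈ B
        · exact Or.inr ⟨htT, htB⟩
        · left
          rw [hX, Finset.mem_coe, Finset.mem_biUnion]
          rw [hS, Finset.mem_coe, Finset.mem_map] at hx
          obtain ⟨b, hbs, rfl⟩ := hx
          refine ⟨b, hbs, ?_⟩
          rw [hN, Finset.mem_filter]
          exact ⟨Finset.mem_univ _, ⟨htT, htB⟩,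
            hT.exchange_base_of_notMem_closure htT ht (hB.subset_ground hxB.1)⟩
      · refine M.mem_closure_of_mem (Or.inr hx) ?_
        exact Set.union_subset (hXT.trans (Set.sdiff_subset.trans hT.subset_ground))
          (Set.inter_subset_left.trans hT.subset_ground)
    have hind : M.Indep (S ∪ (T ∩ B)) :=
      hB.indep.subset (Set.union_subset (hSB.trans Set.sdiff_subset) Set.inter_subset_right)
    have h2 := hind.encard_le_eRk_of_subset hcl
    rw [M.eRk_closure_eq] at h2
    have h3 := h2.trans (M.eRk_le_encard _)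
    rw [Set.encard_union_eq, Set.encard_union_eq] at h3
    · have hfin : (T ∩ B).encard ≠ ⊤ := (Set.toFinite _).encard_lt_top.ne
      have h4 := (WithTop.add_le_add_iff_right hfin).1 h3
      rw [hX, hS, Set.encard_coe_eq_coe_finsetCard, Set.encard_coe_eq_coe_finsetCard,
        Finset.card_map] at h4
      exact (Nat.cast_le (α := ℕ∞)).1 h4
    · exact Set.disjoint_left.2 fun x hx hx' => (hXT hx).2 hx'.2
    · exact Set.disjoint_left.2 fun x hx hx' => (hSB hx).2 hx'.1
  obtain ⟨g, hg, hg2⟩ := (Finset.all_card_le_biUnion_card_iff_exists_injective N).1 hall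
  refine ⟨fun b => if h : b ∈ B \ T then g ⟨b, h⟩ else b, ?_, ?_⟩
  · intro a ha b hb hab
    simp only [dif_pos ha, dif_pos hb] at hab
    exact congrArg Subtype.val (hg hab)
  · intro b hb
    simp only [dif_pos hb]
    have h := hg2 ⟨b, hb⟩
    rw [hN, Finset.mem_filter] at h
    exact h.2

end Vale.Agent.P317
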