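import Vale.Agent.P317.Model

/-! P317: row TOUR. -/

namespace Vale.Agent.P317

/-- TOUR: a digraph with out-degrees `≤ d` joining every pair has at most `2d+1` vertices -/
theorem tour {β : Type*} [DecidableEq β] (S : Finset β) (R : β → β → Prop) [DecidableRel R] (d : ℕ)
    (hd : ∀ b ∈ S, ((S.erase b).filter (R b)).card ≤ d)
    (h : ∀ b ∈ S, ∀ b' ∈ S, b ≠ b' → R b b' ∨ R b' b) : S.card ≤ 2 * d + 1 := by
  classical
  rcases S.eq_empty_or_nonempty with hS | hS
  · rw [hS]
    simp
  have hpos : 0 < S.card := hS.card_pos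
  -- number of ordered pairs of distinct elements
  have h1 : S.offDiag.card = S.card * S.card - S.card := Finset.offDiag_card S
  -- every pair is an arc in one of the two directions
  let X := S.offDiag.filter (fun p => R p.1 p.2)
  let Y := S.offDiag.filter (fun p => R p.2 p.1)
  have h2 : S.offDiag ⊆ X ∪ Y := by
    intro p hp
    rw [Finset.mem_union, Finset.mem_filter, Finset.mem_filter]
    have hp' := Finset.mem_offDiag.1 hp
    rcases h p.1 hp'.1 p.2 hp'.2.1 hp'.2.2 with h3 | h3
    · exact Or.inl ⟨hp, h3⟩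
    · exact Or.inr ⟨hp, h3⟩
  have hX : X.card = ∑ b ∈ S, ((S.erase b).filter (R b)).card := by
    rw [← Finset.card_sigma]
    apply Finset.card_bij (fun p _ => (⟨p.1, p.2⟩ : (_ : β) × β))
    · intro p hp
      rw [Finset.mem_filter, Finset.mem_offDiag] at hp
      rw [Finset.mem_sigma, Finset.mem_filter, Finset.mem_erase]
      exact ⟨hp.1.1, ⟨hp.1.2.2.symm, hp.1.2.1⟩, hp.2⟩
    · intro p _ p' _ hpp
      rw [Sigma.mk.injEq] at hpp
      exact Prod.ext hpp.1 (eq_of_heq hpp.2)
    · rintro ⟨b, b'⟩ hb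
      rw [Finset.mem_sigma, Finset.mem_filter, Finset.mem_erase] at hb
      refine ⟨(b, b'), ?_, rfl⟩
      rw [Finset.mem_filter, Finset.mem_offDiag]
      exact ⟨⟨hb.1, hb.2.1.2, hb.2.1.1.symm⟩, hb.2.2⟩
  have hY : Y.card = X.card := by
    apply Finset.card_bij (fun p _ => (p.2, p.1))
    · intro p hp
      rw [Finset.mem_filter, Finset.mem_offDiag] at hp ⊢
      exact ⟨⟨hp.1.2.1, hp.1.1, hp.1.2.2.symm⟩, hp.2⟩
    · intro p _ p' _ hpp
      rw [Prod.mk.injEq] at hpp
      exact Prod.ext hpp.2 hpp.1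
    · rintro ⟨b, b'⟩ hb
      rw [Finset.mem_filter, Finset.mem_offDiag] at hb
      refine ⟨(b', b), ?_, rfl⟩
      rw [Finset.mem_filter, Finset.mem_offDiag]
      exact ⟨⟨hb.1.2.1, hb.1.1, hb.1.2.2.symm⟩, hb.2⟩
  have hXd : X.card ≤ S.card * d := by
    rw [hX]
    calc ∑ b ∈ S, ((S.erase b).filter (R b)).card ≤ ∑ _b ∈ S, d := Finset.sum_le_sum hd
      _ = S.card * d := by rw [Finset.sum_const, smul_eq_mul]
  have h3 : S.card * S.card - S.card ≤ S.card * (2 * d) := by
    rw [← h1]
    calc S.offDiag.card ≤ (X ∪ Y).card := Finset.card_le_card h2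
      _ ≤ X.card + Y.card := Finset.card_union_le _ _
      _ ≤ S.card * d + S.card * d := by rw [hY]; exact Nat.add_le_add hXd hXd
      _ = S.card * (2 * d) := by ring
  have h4 : S.card * S.card ≤ S.card * (2 * d + 1) := by
    calc S.card * S.card ≤ (S.card * S.card - S.card) + S.card := le_tsub_add
      _ ≤ S.card * (2 * d) + S.card := Nat.add_le_add_right h3 _
      _ = S.card * (2 * d + 1) := by ring
  exact Nat.le_of_mul_le_mul_left h4 hpos

end Vale.Agent.P317
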