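import Vale.Agent.P317.Exch
import Vale.Agent.P317.Sdr
import Vale.Agent.P317.Tour
import Vale.Agent.P317.Deg

namespace Vale.Agent.P317

variable {α : Type*}

/-- from a base of `M₁` to a nearest common base -/
theorem core [Finite α] (M₁ M₂ : Matroid α) (r c : ℕ) {T B : Set α} (h1 : M₁.IsBase T)
    (h2 : M₂.IsBase T) (hB : M₁.IsBase B) (hTr : T.ncard = r) (hE2 : M₂.E = Set.univ)
    (hc : ∀ I : Set α, I.ncard ≤ r - c → M₂.Indep I)
    (hnear : ∀ T' : Set α, M₁.IsBase T' → M₂.IsBase T' → (B \ T).ncard ≤ (B \ T').ncard) :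
    (B \ T).ncard ≤ 2 * c - 1 := by
  classical
  obtain ⟨f, hf, hfb⟩ := sdr M₁ h1 hB
  -- the set of bad elements
  set D : α → Set α := fun b => {t | t ∈ T ∧ ¬ M₂.IsBase (insert b (T \ {t}))} with hD
  have hDc : ∀ b, b ∉ T → (D b).ncard ≤ c := fun b hb => deg M₂ r c h2 hTr hE2 hc hb
  -- single exchanges
  have hs : ∀ b ∈ B \ T, ∀ t ∈ T \ B, M₁.IsBase (insert b (T \ {t})) →
      ¬ M₂.IsBase (insert b (T \ {t})) := by
    intro b hb t ht hm1 hm2
    have h3 := hnear _ hm1 hm2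
    have h4 : (B \ insert b (T \ {t})) ⊂ B \ T := by
      refine ⟨fun x hx => ⟨hx.1, fun hxT => hx.2 (Or.inr ⟨hxT, fun hxt => ht.2 ?_⟩)⟩, fun hss => ?_⟩
      · rw [Set.mem_singleton_iff] at hxt; rw [← hxt]; exact hx.1
      · exact (hss hb).2 (Or.inl rfl)
    exact absurd (Set.ncard_lt_ncard h4 (Set.toFinite _)) (not_lt.2 h3)
  have hfD : ∀ b ∈ B \ T, f b ∈ D b := fun b hb =>
    ⟨(hfb b hb).1.1, hs b hb _ (hfb b hb).1 (hfb b hb).2⟩
  -- double exchanges
  have hpair : ∀ b ∈ B \ T, ∀ b' ∈ B \ T, b ≠ b' → f b' ∈ D b ∨ f b ∈ D b' := by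
    intro b hb b' hb' hne
    by_contra hcon
    push Not at hcon
    obtain ⟨hc1, hc2⟩ := hcon
    have hft : f b ≠ f b' := fun h => hne (hf hb hb' h)
    have hm2 : M₂.IsBase (insert b (T \ {f b'})) := by
      by_contra h; exact hc1 ⟨(hfb b' hb').1.1, h⟩
    have hm2' : M₂.IsBase (insert b' (T \ {f b})) := by
      by_contra h; exact hc2 ⟨(hfb b hb).1.1, h⟩
    have hn1 : ¬ M₁.IsBase (insert b (T \ {f b'})) := fun h =>
      hs b hb _ (hfb b' hb').1 h hm2
    have hA := exch M₁ h1 hb.2 hb'.2 (hfb b hb).1.1 (hfb b' hb').1.1 hne hft (hfb b hb).2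
      (hfb b' hb').2 hn1
    have hB2 := exch M₂ h2 hb.2 hb'.2 (hfb b' hb').1.1 (hfb b hb).1.1 hne hft.symm hm2 hm2'
      (hfD b hb).2
    rw [Set.pair_comm] at hB2
    have h3 := hnear _ hA hB2
    have h4 : (B \ insert b (insert b' (T \ {f b, f b'}))) ⊂ B \ T := by
      refine ⟨fun x hx => ⟨hx.1, fun hxT => hx.2 (Or.inr (Or.inr ⟨hxT, fun hxt => ?_⟩))⟩,
        fun hss => ?_⟩
      · rcases hxt with hxt | hxt
        · exact (hfb b hb).1.2 (hxt ▸ hx.1)
        · rw [Set.mem_singleton_iff] at hxt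
          exact (hfb b' hb').1.2 (hxt ▸ hx.1)
      · exact (hss hb).2 (Or.inl rfl)
    exact absurd (Set.ncard_lt_ncard h4 (Set.toFinite _)) (not_lt.2 h3)
  -- counting
  rcases (B \ T).eq_empty_or_nonempty with hem | ⟨b0, hb0⟩
  · rw [hem]; simp
  have hfin : (B \ T).Finite := Set.toFinite _
  have hcpos : 1 ≤ c := by
    have h5 := hDc b0 hb0.2
    have h6 : 0 < (D b0).ncard := (Set.ncard_pos (Set.toFinite _)).2 ⟨_, hfD b0 hb0⟩
    omega
  have hout : ∀ b ∈ hfin.toFinset,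
      ((hfin.toFinset.erase b).filter (fun b' => f b' ∈ D b)).card ≤ c - 1 := by
    intro b hb
    have hb1 : b ∈ B \ T := hfin.mem_toFinset.1 hb
    have h7 : ((hfin.toFinset.erase b).filter (fun b' => f b' ∈ D b)).card
        ≤ ((D b) \ {f b}).ncard := by
      rw [← Set.ncard_coe_finset]
      refine Set.ncard_le_ncard_of_injOn f ?_ ?_ (Set.toFinite _)
      · intro x hx
        simp only [Finset.coe_filter, Finset.mem_erase, Set.Finite.mem_toFinset,
          Set.mem_setOf_eq] at hx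
        exact ⟨hx.2, fun h => hx.1.1 (hf hx.1.2 hb1 h)⟩
      · intro x hx y hy hxy
        simp only [Finset.coe_filter, Finset.mem_erase, Set.Finite.mem_toFinset,
          Set.mem_setOf_eq] at hx hy
        exact hf hx.1.2 hy.1.2 hxy
    have h8 := Set.ncard_diff_singleton_add_one (hfD b hb1) (Set.toFinite _)
    have h9 := hDc b hb1.2
    omega
  have hT := tour hfin.toFinset (fun b b' => f b' ∈ D b) (c - 1) hout (by
    intro b hb b' hb' hne
    exact hpair b (hfin.mem_toFinset.1 hb) b' (hfin.mem_toFinset.1 hb') hne)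
  rw [Set.ncard_eq_toFinset_card _ hfin]
  omega

end Vale.Agent.P317
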