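import Vale.Agent.P317.Model

namespace Vale.Agent.P317

variable {α : Type*}

/-- COUNT: counting pairs at small distance -/
theorem count [Fintype α] [DecidableEq α] (r k : ℕ) (S U : Finset (Finset α))
    (hS : ∀ B ∈ S, B.card = r) (hU : ∀ T ∈ U, T.card = r)
    (h : ∀ B ∈ S, ∃ T ∈ U, (B \ T).card ≤ k) :
    S.card ≤ (∑ i ∈ Finset.range (k + 1), r.choose i * (Fintype.card α - r).choose i) *
      U.card := by
  have hsub : S ⊆ U.biUnion (fun T => (Finset.range (k + 1)).biUnion (fun i =>
      ((T.powersetCard i) ×ˢ (Tᶜ.powersetCard i)).image (fun p => (T \ p.1) ∪ p.2))) := by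
    intro B hB
    obtain ⟨T, hT, hk⟩ := h B hB
    refine Finset.mem_biUnion.2 ⟨T, hT, Finset.mem_biUnion.2 ⟨(B \ T).card,
      Finset.mem_range.2 (by omega), Finset.mem_image.2 ⟨(T \ B, B \ T), ?_, ?_⟩⟩⟩
    · rw [Finset.mem_product]
      refine ⟨Finset.mem_powersetCard.2 ⟨Finset.sdiff_subset, ?_⟩,
        Finset.mem_powersetCard.2 ⟨?_, rfl⟩⟩
      · exact Finset.card_sdiff_comm ((hU T hT).trans (hS B hB).symm)
      · intro x hx
        exact Finset.mem_compl.2 (Finset.mem_sdiff.1 hx).2
    · ext x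
      simp only [Finset.mem_union, Finset.mem_sdiff]
      tauto
  have h1 : ∀ T ∈ U, ((Finset.range (k + 1)).biUnion (fun i =>
      ((T.powersetCard i) ×ˢ (Tᶜ.powersetCard i)).image (fun p => (T \ p.1) ∪ p.2))).card ≤
      ∑ i ∈ Finset.range (k + 1), r.choose i * (Fintype.card α - r).choose i := by
    intro T hT
    refine Finset.card_biUnion_le.trans (Finset.sum_le_sum fun i _ => ?_)
    refine Finset.card_image_le.trans ?_
    rw [Finset.card_product, Finset.card_powersetCard, Finset.card_powersetCard,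
      Finset.card_compl, hU T hT]
  calc S.card ≤ _ := Finset.card_le_card hsub
    _ ≤ ∑ T ∈ U, _ := Finset.card_biUnion_le
    _ ≤ ∑ _T ∈ U, ∑ i ∈ Finset.range (k + 1), r.choose i * (Fintype.card α - r).choose i :=
      Finset.sum_le_sum h1
    _ = _ := by rw [Finset.sum_const, smul_eq_mul, mul_comm]

end Vale.Agent.P317
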