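import Vale.Agent.P317.Model

/-! P317: two-element exchange with a unique matching. -/

namespace Vale.Agent.P317

variable {α : Type*}

/-- EXCH: two-element exchange with a unique matching -/
theorem exch (M : Matroid α) {T : Set α} (hT : M.IsBase T) {b b' t t' : α} (hb : b ∉ T)
    (hb' : b' ∉ T) (ht : t ∈ T) (ht' : t' ∈ T) (hbb : b ≠ b') (htt : t ≠ t')
    (h1 : M.IsBase (insert b (T \ {t}))) (h2 : M.IsBase (insert b' (T \ {t'})))
    (h3 : ¬ M.IsBase (insert b (T \ {t'}))) :
    M.IsBase (insert b (insert b' (T \ {t, t'}))) := by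
  have hbE : b ∈ M.E := h1.subset_ground (Set.mem_insert _ _)
  have hbE' : b' ∈ M.E := h2.subset_ground (Set.mem_insert _ _)
  have hTE : T ⊆ M.E := hT.subset_ground
  have hI : M.Indep (T \ {t'}) := hT.indep.subset Set.sdiff_subset
  have c1 : b ∈ M.closure (T \ {t'}) := by
    by_contra hcon
    exact h3 (hT.exchange_base_of_notMem_closure ht' hcon hbE)
  have c2 : b' ∉ M.closure (T \ {t'}) :=
    (hI.notMem_closure_iff_of_notMem (fun h => hb' h.1) hbE').2 h2.indep
  have hsub : (insert b (T \ {t})) \ {t'} ⊆ M.closure (T \ {t'}) := by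
    rintro x ⟨hx, hxt⟩
    rcases hx with rfl | hx
    · exact c1
    · exact M.mem_closure_of_mem ⟨hx.1, hxt⟩ (Set.sdiff_subset.trans hTE)
  have c3 : b' ∉ M.closure ((insert b (T \ {t})) \ {t'}) := fun h =>
    c2 (by
      have := M.closure_subset_closure hsub h
      rwa [M.closure_closure] at this)
  have h4 := h1.exchange_base_of_notMem_closure
    (show t' ∈ insert b (T \ {t}) from Or.inr ⟨ht', fun h => htt h.symm⟩) c3 hbE'
  have e : insert b' ((insert b (T \ {t})) \ {t'}) = insert b (insert b' (T \ {t, t'})) := by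
    have hbt' : b ≠ t' := fun h => hb (h ▸ ht')
    ext x
    simp only [Set.mem_insert_iff, Set.mem_sdiff, Set.mem_singleton_iff, not_or]
    constructor
    · rintro (h | ⟨h | ⟨h5, h6⟩, h7⟩)
      · exact Or.inr (Or.inl h)
      · exact Or.inl h
      · exact Or.inr (Or.inr ⟨h5, h6, h7⟩)
    · rintro (h | h | ⟨h5, h6, h7⟩)
      · exact Or.inr ⟨Or.inl h, h ▸ hbt'⟩
      · exact Or.inl h
      · exact Or.inr ⟨Or.inr ⟨h5, h6⟩, h7⟩
  rwa [e] at h4

end Vale.Agent.P317
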