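import Mathlib

/-! Row MC: Chebyshev's inequality for the empirical estimator, by counting. -/

namespace Vale.Agent.P317

namespace MC

theorem second_moment {β : Type*} [Fintype β] [Nonempty β] (h : β → ℝ) (h0 : ∑ b, h b = 0) :
    ∀ (m : ℕ) (c : ℝ), ∑ x : Fin m → β, (c + ∑ i, h (x i)) ^ 2 =
      (Fintype.card β : ℝ) ^ m * (c ^ 2 + m * (∑ b, h b ^ 2) / Fintype.card β) := by
  have hn : (Fintype.card β : ℝ) ≠ 0 := by positivity
  intro m
  induction m with
  | zero => intro c; simp
  | succ m ih =>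
    intro c
    rw [← (Fin.consEquiv (fun _ : Fin (m + 1) => β)).sum_comp, Fintype.sum_prod_type]
    have h1 : ∀ b : β, ∑ x : Fin m → β, (c + ∑ i, h ((Fin.consEquiv (fun _ : Fin (m + 1) => β)) (b, x) i)) ^ 2
        = (Fintype.card β : ℝ) ^ m * ((c + h b) ^ 2 + m * (∑ b, h b ^ 2) / Fintype.card β) := by
      intro b
      rw [← ih (c + h b)]
      refine Finset.sum_congr rfl fun x _ => ?_
      rw [Fin.sum_univ_succ]
      simp only [Fin.consEquiv_apply, Fin.cons_zero, Fin.cons_succ]
      ring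
    rw [Finset.sum_congr rfl fun b _ => h1 b, ← Finset.mul_sum, Finset.sum_add_distrib]
    have h2 : ∑ b, (c + h b) ^ 2 = Fintype.card β * c ^ 2 + ∑ b, h b ^ 2 := by
      have : ∀ b, (c + h b) ^ 2 = c ^ 2 + 2 * c * h b + h b ^ 2 := fun b => by ring
      rw [Finset.sum_congr rfl fun b _ => this b, Finset.sum_add_distrib, Finset.sum_add_distrib,
        ← Finset.mul_sum, h0]
      simp
    rw [h2, Finset.sum_const, Finset.card_univ, nsmul_eq_mul]
    push_cast
    field_simp
    ring

end MC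

/-- MC: the empirical estimator from `m` uniform samples of `β` for the size of `A ⊆ β` is within
a factor `1 ± ε` with probability at least `1 - δ`, as soon as `m ≥ K / (ε² δ)`, `|β| ≤ K |A|`. -/
theorem mc {β : Type*} [Fintype β] [DecidableEq β] (A : Finset β) (hA : A.Nonempty) (K ε δ : ℝ)
    (hK : (Fintype.card β : ℝ) ≤ K * A.card) (hε : 0 < ε) (hδ : 0 < δ) (m : ℕ)
    (hm : K / (ε ^ 2 * δ) ≤ m) :
    ((Finset.univ.filter (fun x : Fin m → β => ε * A.card <
        |(Fintype.card β : ℝ) * ((Finset.univ.filter (fun i => x i ∈ A)).card / m)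
          - A.card|)).card : ℝ) ≤ δ * (Fintype.card β : ℝ) ^ m := by
  obtain ⟨b0, hb0⟩ := hA
  have : Nonempty β := ⟨b0⟩
  set n : ℝ := (Fintype.card β : ℝ) with hn
  set a : ℝ := (A.card : ℝ) with ha
  have hn0 : 0 < n := by positivity
  have ha0 : 0 < a := by rw [ha]; exact_mod_cast Finset.card_pos.mpr ⟨b0, hb0⟩
  have hK0 : 0 < K := by
    by_contra h
    push Not at h
    nlinarith
  have hm0 : (0:ℝ) < m := lt_of_lt_of_le (by positivity) hm
  let h : β → ℝ := fun b => n * (if b ∈ A then 1 else 0) - a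
  have hs : ∑ b, (if b ∈ A then (1:ℝ) else 0) = a := by
    rw [Finset.sum_ite_mem, Finset.univ_inter, Finset.sum_const, nsmul_eq_mul, mul_one]
  have h0 : ∑ b, h b = 0 := by
    simp only [h]
    rw [Finset.sum_sub_distrib, ← Finset.mul_sum, hs, Finset.sum_const, Finset.card_univ,
      nsmul_eq_mul, ← hn]
    ring
  have hV : ∑ b, h b ^ 2 = n * a * (n - a) := by
    have : ∀ b, h b ^ 2 = (n ^ 2 - 2 * n * a) * (if b ∈ A then 1 else 0) + a ^ 2 := by
      intro b
      simp only [h]
      split_ifs <;> ring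
    rw [Finset.sum_congr rfl fun b _ => this b, Finset.sum_add_distrib, ← Finset.mul_sum, hs,
      Finset.sum_const, Finset.card_univ, nsmul_eq_mul, ← hn]
    ring
  have h2 := MC.second_moment h h0 m 0
  rw [hV, ← hn] at h2
  have hx : ∀ x : Fin m → β, n * (((Finset.univ.filter (fun i => x i ∈ A)).card : ℝ) / m) - a =
      (0 + ∑ i, h (x i)) / m := by
    intro x
    simp only [h]
    rw [Finset.sum_sub_distrib, ← Finset.mul_sum, Finset.sum_const, Finset.card_univ,
      Fintype.card_fin, nsmul_eq_mul, Finset.sum_ite, Finset.sum_const, Finset.sum_const_zero,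
      nsmul_eq_mul]
    field_simp
    ring
  set F := Finset.univ.filter (fun x : Fin m → β => ε * a <
        |n * (((Finset.univ.filter (fun i => x i ∈ A)).card : ℝ) / m) - a|) with hF
  have h3 : (F.card : ℝ) * (ε * a * m) ^ 2 ≤ ∑ x : Fin m → β, (0 + ∑ i, h (x i)) ^ 2 := by
    rw [← nsmul_eq_mul, ← Finset.sum_const]
    refine (Finset.sum_le_sum fun x hx' => ?_).trans
      (Finset.sum_le_sum_of_subset_of_nonneg (Finset.subset_univ F) fun _ _ _ => sq_nonneg _)
    rw [hF, Finset.mem_filter, hx x, abs_div, abs_of_pos hm0, lt_div_iff₀ hm0] at hx'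
    rw [← sq_abs (0 + ∑ i, h (x i))]
    exact pow_le_pow_left₀ (by positivity) hx'.2.le 2
  rw [h2] at h3
  have h4 : n ^ m * (0 ^ 2 + m * (n * a * (n - a)) / n) ≤ n ^ m * (m * a * (K * a)) := by
    refine mul_le_mul_of_nonneg_left ?_ (by positivity)
    have : (0:ℝ) ^ 2 + m * (n * a * (n - a)) / n = m * a * (n - a) := by
      field_simp
      ring
    rw [this]
    exact mul_le_mul_of_nonneg_left (by linarith) (by positivity)
  have h5 : K ≤ δ * ε ^ 2 * m := by
    rw [div_le_iff₀ (by positivity)] at hm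
    linarith
  have h6 : n ^ m * (m * a * (K * a)) ≤ (δ * n ^ m) * (ε * a * m) ^ 2 := by
    have h7 : (δ * n ^ m) * (ε * a * m) ^ 2 = n ^ m * (m * a * ((δ * ε ^ 2 * m) * a)) := by ring
    rw [h7]
    refine mul_le_mul_of_nonneg_left ?_ (by positivity)
    refine mul_le_mul_of_nonneg_left ?_ (by positivity)
    exact mul_le_mul_of_nonneg_right h5 ha0.le
  have h8 := h3.trans (h4.trans h6)
  exact le_of_mul_le_mul_right h8 (by positivity)

end Vale.Agent.P317
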