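import Vale.Agent.P317.Asm
import Vale.Agent.P317.Count
import Vale.Agent.P317.MC

namespace Vale.Agent.P317

open Classical in
/-- the Monte Carlo estimate of the number of common bases from `m` sampled bases of `M₁`:
the number of bases of `M₁` times the fraction of common bases among the samples -/
noncomputable def estimate {α : Type*} [Fintype α] (M₁ M₂ : Matroid α) (m : ℕ)
    (x : Fin m → {B // B ∈ bases M₁}) : ℝ :=
  ((bases M₁).card : ℝ) *
    ((Finset.univ.filter (fun i => (x i : Finset α) ∈ common M₁ M₂)).card / m)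

variable {α : Type*}

theorem sum_le (n r c : ℕ) (hn : 1 ≤ n) (hr : r ≤ n) (hc : 1 ≤ c) :
    (∑ i ∈ Finset.range (2 * c - 1 + 1), r.choose i * (n - r).choose i) ≤
      2 * c * n ^ (4 * c - 2) := by
  have h1 : ∀ i ∈ Finset.range (2 * c - 1 + 1), r.choose i * (n - r).choose i ≤ n ^ (4 * c - 2) := by
    intro i hi
    rw [Finset.mem_range] at hi
    have h2 : r.choose i ≤ n ^ i := (Nat.choose_le_pow r i).trans (Nat.pow_le_pow_left hr i)
    have h3 : (n - r).choose i ≤ n ^ i :=
      (Nat.choose_le_pow (n - r) i).trans (Nat.pow_le_pow_left (Nat.sub_le n r) i)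
    calc r.choose i * (n - r).choose i ≤ n ^ i * n ^ i := Nat.mul_le_mul h2 h3
      _ = n ^ (i + i) := (pow_add n i i).symm
      _ ≤ n ^ (4 * c - 2) := Nat.pow_le_pow_right hn (by omega)
  refine (Finset.sum_le_card_nsmul _ _ _ h1).trans ?_
  rw [Finset.card_range, smul_eq_mul]
  have : 2 * c - 1 + 1 = 2 * c := by omega
  rw [this]

theorem main [Fintype α] [DecidableEq α] (M₁ M₂ : Matroid α) (hE1 : M₁.E = Set.univ)
    (hE2 : M₂.E = Set.univ) (r c : ℕ) (hr1 : M₁.eRank = r) (hr2 : M₂.eRank = r)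
    (hN : (common M₁ M₂).Nonempty)
    (hc : (∀ I : Finset α, I.card ≤ r - c → M₂.Indep I) ∨
      (∀ I : Finset α, I.card ≤ (Fintype.card α - r) - c → M₂✶.Indep I)) :
    (∀ B ∈ bases M₁, ∃ T ∈ common M₁ M₂, (B \ T).card ≤ 2 * c - 1) ∧
    (bases M₁).card ≤ (∑ i ∈ Finset.range (2 * c - 1 + 1),
      r.choose i * (Fintype.card α - r).choose i) * (common M₁ M₂).card := by
  have h1 := ncard_base M₁ r hr1
  have h2 := ncard_base M₂ r hr2
  have hnear : ∀ B ∈ bases M₁, ∃ T ∈ common M₁ M₂, (B \ T).card ≤ 2 * c - 1 := by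
    rcases hc with hc | hc
    · exact near_primal M₁ M₂ r c h2 hE2 hN hc
    · exact near_dual M₁ M₂ r c h1 h2 hE1 hE2 hN hc
  refine ⟨hnear, count r (2 * c - 1) (bases M₁) (common M₁ M₂) ?_ ?_ hnear⟩
  · intro B hB
    rw [mem_bases] at hB
    have := h1 _ hB
    rwa [Set.ncard_coe_finset] at this
  · intro B hB
    rw [mem_common] at hB
    have := h1 _ hB.1
    rwa [Set.ncard_coe_finset] at this

theorem sampling [Fintype α] [DecidableEq α] (M₁ M₂ : Matroid α) (hE1 : M₁.E = Set.univ)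
    (hE2 : M₂.E = Set.univ) (r c : ℕ) (hc1 : 1 ≤ c) (hr1 : M₁.eRank = r) (hr2 : M₂.eRank = r)
    (hn : 1 ≤ Fintype.card α)
    (hN : (common M₁ M₂).Nonempty)
    (hc : (∀ I : Finset α, I.card ≤ r - c → M₂.Indep I) ∨
      (∀ I : Finset α, I.card ≤ (Fintype.card α - r) - c → M₂✶.Indep I))
    (ε δ : ℝ) (hε : 0 < ε) (hδ : 0 < δ) (m : ℕ)
    (hm : (2 * c * (Fintype.card α : ℝ) ^ (4 * c - 2)) / (ε ^ 2 * δ) ≤ m) :
    ((Finset.univ.filter (fun x : Fin m → {B // B ∈ bases M₁} =>
      ε * (common M₁ M₂).card < |estimate M₁ M₂ m x - (common M₁ M₂).card|)).card : ℝ)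
      ≤ δ * ((bases M₁).card : ℝ) ^ m := by
  classical
  obtain ⟨-, hmain⟩ := main M₁ M₂ hE1 hE2 r c hr1 hr2 hN hc
  have hcb : common M₁ M₂ ⊆ bases M₁ := by
    intro B hB
    rw [mem_bases]; rw [mem_common] at hB; exact hB.1
  set A : Finset {B // B ∈ bases M₁} := Finset.univ.filter (fun B => (B : Finset α) ∈ common M₁ M₂)
    with hA
  have hAc : A.card = (common M₁ M₂).card := by
    refine Finset.card_bij (fun B _ => (B : Finset α)) ?_ ?_ ?_
    · intro B hB
      rw [hA, Finset.mem_filter] at hB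
      exact hB.2
    · intro B _ B' _ h
      exact Subtype.ext h
    · intro B hB
      exact ⟨⟨B, hcb hB⟩, by rw [hA, Finset.mem_filter]; exact ⟨Finset.mem_univ _, hB⟩, rfl⟩
  have hβ : Fintype.card {B // B ∈ bases M₁} = (bases M₁).card := Fintype.card_coe _
  have hrn : r ≤ Fintype.card α := by
    obtain ⟨T, hT⟩ := hN
    rw [mem_common] at hT
    have h3 := ncard_base M₁ r hr1 _ hT.1
    rw [Set.ncard_coe_finset] at h3
    rw [← h3]; exact Finset.card_le_univ T
  have hle := hmain.trans (Nat.mul_le_mul_right _ (sum_le (Fintype.card α) r c hn hrn hc1))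
  have hANe : A.Nonempty := by
    rw [← Finset.card_pos, hAc]; exact hN.card_pos
  have key := mc A hANe (2 * c * (Fintype.card α : ℝ) ^ (4 * c - 2)) ε δ (by
    rw [hβ, hAc]; exact_mod_cast hle) hε hδ m hm
  rw [hβ, hAc] at key
  refine le_trans (le_of_eq ?_) key
  have he : ∀ x : Fin m → {B // B ∈ bases M₁}, estimate M₁ M₂ m x =
      ((bases M₁).card : ℝ) * ((Finset.univ.filter (fun i => x i ∈ A)).card / m) := by
    intro x
    unfold estimate
    congr 4
    ext i
    simp [hA]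
  simp only [he]

end Vale.Agent.P317
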