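import Mathlib

/-! P317: common bases of two matroids, one of them with large girth. -/

namespace Vale.Agent.P317

open Classical in
/-- the bases of `M`, as finsets -/
noncomputable def bases {α : Type*} [Fintype α] (M : Matroid α) : Finset (Finset α) :=
  Finset.univ.filter fun B => M.IsBase (B : Set α)

open Classical in
/-- the common bases of `M₁` and `M₂`, as finsets -/
noncomputable def common {α : Type*} [Fintype α] (M₁ M₂ : Matroid α) : Finset (Finset α) :=
  Finset.univ.filter fun B => M₁.IsBase (B : Set α) ∧ M₂.IsBase (B : Set α)

end Vale.Agent.P317
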